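import Vale.Agent.Helper13.P328Gap

/-!
# Spectral gap of the switch graph of binary contingency tables, in plain form

`α` indexes the rows and `β` the columns; `ρ a` is the prescribed number of ones in row `a` and
`c j` the prescribed number of ones in column `j`.  The tables are the functions
`x : α → β → Bool` with these margins (the same subtype as in `P328.BinaryTablesPlain`).  Two
tables `x`, `y` are joined by a switch when, for some rows `a ≠ b` and columns `j ≠ k`, `x` has
ones at `(a,j)`, `(b,k)` and zeros at `(a,k)`, `(b,j)`, `y` has the opposite pattern there, and
`y` agrees with `x` on every other cell.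

For every real function `g` on the tables, four times the sum of squared deviations of `g` from
its mean is at most the sum of `(g x - g y)^2` over the ordered pairs `(x, y)` joined by a
switch.  Every unordered switch pair is counted twice, so this says that the second Laplacian
eigenvalue of the switch graph is at least 2, for all margins.

The statement uses no definitions beyond Mathlib.  The proof (in `Vale.Agent.Helper13.P328Gap`)
rests on `KTV.switch_poincare`.
-/

namespace Vale.Agent.Results.P328.BinaryGap

open Finset Classical

theorem result {α β : Type} [Fintype α] [DecidableEq α] [Fintype β] [DecidableEq β]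
    (ρ : α → ℕ) (c : β → ℕ)
    (g : {x : α → β → Bool // (∀ a, (Finset.univ.filter fun j => x a j = true).card = ρ a) ∧
        ∀ j, (Finset.univ.filter fun a => x a j = true).card = c j} → ℝ) :
    4 * ∑ x : {x : α → β → Bool // (∀ a, (Finset.univ.filter fun j => x a j = true).card = ρ a) ∧
          ∀ j, (Finset.univ.filter fun a => x a j = true).card = c j},
        (g x - (∑ y : {x : α → β → Bool //
              (∀ a, (Finset.univ.filter fun j => x a j = true).card = ρ a) ∧
                ∀ j, (Finset.univ.filter fun a => x a j = true).card = c j}, g y)
            / (Fintype.card {x : α → β → Bool //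
              (∀ a, (Finset.univ.filter fun j => x a j = true).card = ρ a) ∧
                ∀ j, (Finset.univ.filter fun a => x a j = true).card = c j} : ℝ)) ^ 2
      ≤ ∑ x : {x : α → β → Bool // (∀ a, (Finset.univ.filter fun j => x a j = true).card = ρ a) ∧
            ∀ j, (Finset.univ.filter fun a => x a j = true).card = c j},
          ∑ y : {x : α → β → Bool //
              (∀ a, (Finset.univ.filter fun j => x a j = true).card = ρ a) ∧
                ∀ j, (Finset.univ.filter fun a => x a j = true).card = c j},
            (if (∃ a b j k, a ≠ b ∧ j ≠ k ∧
                  x.1 a j = true ∧ x.1 b k = true ∧ x.1 a k = false ∧ x.1 b j = false ∧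
                  y.1 a j = false ∧ y.1 b k = false ∧ y.1 a k = true ∧ y.1 b j = true ∧
                  ∀ r s, ¬ ((r = a ∨ r = b) ∧ (s = j ∨ s = k)) → y.1 r s = x.1 r s)
              then (g x - g y) ^ 2 else 0) :=
  Vale.Agent.Helper13.P328Gap.binary_gap ρ c g

end Vale.Agent.Results.P328.BinaryGap
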