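import Vale.Agent.Helper13.KTV.BipartiteChain
import Vale.Agent.Helper16.KTV.Poincare

/-!
# Almost-uniform sampling of binary contingency tables by the switch chain

Contingency tables with all entries in `{0, 1}` (binary tables), any number of rows and
columns, arbitrary row sums `ρ` and column sums `c`.  The lazy chain that picks two rows and
two columns at random and, if the `2 x 2` subtable is one of the two permutation patterns,
replaces it by the other one, is within total variation distance `ε` of the uniform law on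
the tables with these margins after `C(m,2) * C(n,2) * (m * n + log (1/ε))` steps, from every
starting table.  Here `m`, `n` are the numbers of rows and columns.

This is the case of entries bounded by one of the sampling question for contingency tables;
unrestricted non-negative integer entries are not covered.
-/

namespace Vale.Agent.Results.P328.BinaryTables

open Vale.Agent.Helper13.Bip Vale.Agent.Helper13 KTV

theorem result {α β : Type} [Fintype α] [DecidableEq α] [Fintype β] [DecidableEq β]
    (hα : 2 ≤ Fintype.card α) (hβ : 2 ≤ Fintype.card β) (ρ : α → ℕ) (c : β → ℕ)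
    (ε : ℝ) (hε : 0 < ε) (t : ℕ)
    (ht : ((Fintype.card α).choose 2 : ℝ) * ((Fintype.card β).choose 2 : ℝ)
        * ((Fintype.card α : ℝ) * (Fintype.card β : ℝ) + Real.log (1 / ε)) ≤ (t : ℝ))
    (x : TabClass ρ c) :
    (1 / 2 : ℝ) * ∑ y : TabClass ρ c,
      |(chainB ρ c ^ t) x y - 1 / (Fintype.card (TabClass ρ c) : ℝ)| ≤ ε := by
  have hpos := card_moves_pos (α := α) (β := β) hα hβ
  have hcard := card_moves α β
  have hc1 : (0:ℝ) < ((Fintype.card α).choose 2 : ℝ) := by
    have : 0 < (Fintype.card α).choose 2 := Nat.choose_pos hα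
    exact_mod_cast this
  have hc2 : (0:ℝ) < ((Fintype.card β).choose 2 : ℝ) := by
    have : 0 < (Fintype.card β).choose 2 := Nat.choose_pos hβ
    exact_mod_cast this
  set lam : ℝ := 1 / (((Fintype.card α).choose 2 : ℝ) * ((Fintype.card β).choose 2 : ℝ)) with hlam
  have hlam0 : 0 < lam := by rw [hlam]; positivity
  have hT : ∀ f : Tab α β → ℝ, 4 * sqDev (Omega ρ c) f ≤ dirichlet (Omega ρ c) IsSwitch f :=
    fun f => switch_poincare ρ c f
  have hP : ∀ g : TabClass ρ c → ℝ, ∑ x, g x = 0 →
      2 * lam * Mixing.ssq g ≤ ∑ x, ∑ y, chainB ρ c x y * (g x - g y) ^ 2 := by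
    intro g hg
    have h1 := chainB_energy (ρ := ρ) (c := c) hα hβ g
    have h2 := gap_on_class hT g hg
    have h3 : (0:ℝ) ≤ 2 / (Fintype.card ((Fin 2 ↪ α) × (Fin 2 ↪ β)) : ℝ) := by positivity
    have h4 : 2 * lam * Mixing.ssq g
        = (2 / (Fintype.card ((Fin 2 ↪ α) × (Fin 2 ↪ β)) : ℝ)) * (4 * ∑ x, g x ^ 2) := by
      rw [hcard, hlam]
      unfold Mixing.ssq
      field_simp
    rw [h4]
    exact le_trans (mul_le_mul_of_nonneg_left h2 h3) h1
  have htv := Mixing.tv_bound (chainB ρ c) chainB_symm chainB_nonneg (chainB_row hα hβ)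
    chainB_lazy lam hP t x
  refine htv.trans ?_
  have hN : (1:ℝ) ≤ (Fintype.card (TabClass ρ c) : ℝ) := by
    have : 0 < Fintype.card (TabClass ρ c) := Fintype.card_pos_iff.mpr ⟨x⟩
    exact_mod_cast this
  have hs : (0:ℝ) < Real.sqrt (Fintype.card (TabClass ρ c)) := Real.sqrt_pos.mpr (by linarith)
  have h2s : (0:ℝ) < 2 * Real.sqrt (Fintype.card (TabClass ρ c)) := by positivity
  have hlog := log_card_class_le hα hβ ρ c
  -- exponent bound
  have e2 : lam * (((Fintype.card α).choose 2 : ℝ) * ((Fintype.card β).choose 2 : ℝ)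
        * ((Fintype.card α : ℝ) * (Fintype.card β : ℝ) + Real.log (1 / ε)))
        = (Fintype.card α : ℝ) * (Fintype.card β : ℝ) + Real.log (1 / ε) := by
    rw [hlam]; field_simp
  have e3 : lam * (((Fintype.card α).choose 2 : ℝ) * ((Fintype.card β).choose 2 : ℝ)
        * ((Fintype.card α : ℝ) * (Fintype.card β : ℝ) + Real.log (1 / ε))) ≤ lam * (t : ℝ) :=
    mul_le_mul_of_nonneg_left ht hlam0.le
  have hexp : Real.exp (-lam * (t : ℝ))
      ≤ ε / (2 * Real.sqrt (Fintype.card (TabClass ρ c))) := by
    have e1 : ε / (2 * Real.sqrt (Fintype.card (TabClass ρ c)))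
        = Real.exp (-Real.log (2 * Real.sqrt (Fintype.card (TabClass ρ c)))
            - Real.log (1 / ε)) := by
      rw [Real.exp_sub, Real.exp_neg, Real.exp_log h2s, Real.exp_log (by positivity)]
      field_simp
    rw [e1]
    apply Real.exp_le_exp.mpr
    linarith
  have : Real.sqrt (Fintype.card (TabClass ρ c)) * Real.exp (-lam * (t : ℝ)) ≤ ε / 2 := by
    calc Real.sqrt (Fintype.card (TabClass ρ c)) * Real.exp (-lam * (t : ℝ))
        ≤ Real.sqrt (Fintype.card (TabClass ρ c)) *
          (ε / (2 * Real.sqrt (Fintype.card (TabClass ρ c)))) :=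
          mul_le_mul_of_nonneg_left hexp hs.le
      _ = ε / 2 := by field_simp
  linarith

end Vale.Agent.Results.P328.BinaryTables
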