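import Vale.Agent.Results.P328.BinaryTables

/-!
# Almost-uniform sampling of binary contingency tables by the switch chain, in plain form

The same theorem as `Vale.Agent.Results.P328.BinaryTables.result`, stated with Mathlib notions
only.  The tables are the functions `x : α → β → Bool` with prescribed numbers of `true` entries
in every row and in every column.  The chain is given by a hypothesis on the entries of its
transition matrix `P`: with probability `1/2` stay put; otherwise pick uniformly an ordered pair
of distinct rows `p.1 0, p.1 1` and an ordered pair of distinct columns `p.2 0, p.2 1`; if the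
`2 x 2` subtable is one of the two permutation patterns, flip its four entries, otherwise stay
put.
-/

namespace Vale.Agent.Results.P328.BinaryTablesPlain

open Vale.Agent.Helper13.Bip Vale.Agent.Helper13 KTV

theorem moveB_plain {α β : Type} [Fintype α] [DecidableEq α] [Fintype β] [DecidableEq β]
    (z : α → β → Bool) (p : (Fin 2 ↪ α) × (Fin 2 ↪ β)) :
    moveB z p.1 p.2 =
      (if (z (p.1 0) (p.2 0) = true ∧ z (p.1 1) (p.2 1) = true ∧
              z (p.1 0) (p.2 1) = false ∧ z (p.1 1) (p.2 0) = false) ∨
            (z (p.1 0) (p.2 1) = true ∧ z (p.1 1) (p.2 0) = true ∧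
              z (p.1 0) (p.2 0) = false ∧ z (p.1 1) (p.2 1) = false)
          then fun a j => if (a = p.1 0 ∨ a = p.1 1) ∧ (j = p.2 0 ∨ j = p.2 1)
            then !(z a j) else z a j
          else z) := by
  unfold moveB Pattern
  split_ifs <;> rfl

/-- **Binary contingency tables, plain form.**  `α` indexes the rows and `β` the columns (at
least two of each), `ρ a` is the prescribed number of ones in row `a` and `c j` the prescribed
number of ones in column `j`.  Let `P` be the transition matrix of the lazy switch chain on the
`0/1` tables with these margins.  Then for every `ε > 0`, every starting table `x` and every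
`t ≥ C(m,2) * C(n,2) * (m * n + log (1/ε))`, where `m`, `n` are the numbers of rows and columns,
the `t`-step distribution from `x` is within total variation distance `ε` of the uniform
distribution on these tables. -/
theorem result {α β : Type} [Fintype α] [DecidableEq α] [Fintype β] [DecidableEq β]
    (hα : 2 ≤ Fintype.card α) (hβ : 2 ≤ Fintype.card β) (ρ : α → ℕ) (c : β → ℕ)
    (P : Matrix
      {x : α → β → Bool // (∀ a, (Finset.univ.filter fun j => x a j = true).card = ρ a) ∧
        ∀ j, (Finset.univ.filter fun a => x a j = true).card = c j}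
      {x : α → β → Bool // (∀ a, (Finset.univ.filter fun j => x a j = true).card = ρ a) ∧
        ∀ j, (Finset.univ.filter fun a => x a j = true).card = c j} ℝ)
    (hP : ∀ x y, P x y = (1 / 2 : ℝ) * (if x = y then 1 else 0)
      + (1 / 2 : ℝ) * ((Finset.univ.filter fun p : (Fin 2 ↪ α) × (Fin 2 ↪ β) =>
          (if (x.1 (p.1 0) (p.2 0) = true ∧ x.1 (p.1 1) (p.2 1) = true ∧
                  x.1 (p.1 0) (p.2 1) = false ∧ x.1 (p.1 1) (p.2 0) = false) ∨
                (x.1 (p.1 0) (p.2 1) = true ∧ x.1 (p.1 1) (p.2 0) = true ∧
                  x.1 (p.1 0) (p.2 0) = false ∧ x.1 (p.1 1) (p.2 1) = false)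
              then fun a j => if (a = p.1 0 ∨ a = p.1 1) ∧ (j = p.2 0 ∨ j = p.2 1)
                then !(x.1 a j) else x.1 a j
              else x.1) = y.1).card : ℝ)
        / (Fintype.card ((Fin 2 ↪ α) × (Fin 2 ↪ β)) : ℝ))
    (ε : ℝ) (hε : 0 < ε) (t : ℕ)
    (ht : ((Fintype.card α).choose 2 : ℝ) * ((Fintype.card β).choose 2 : ℝ)
        * ((Fintype.card α : ℝ) * (Fintype.card β : ℝ) + Real.log (1 / ε)) ≤ (t : ℝ))
    (x : {x : α → β → Bool // (∀ a, (Finset.univ.filter fun j => x a j = true).card = ρ a) ∧
        ∀ j, (Finset.univ.filter fun a => x a j = true).card = c j}) :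
    (1 / 2 : ℝ) * ∑ y : {x : α → β → Bool //
          (∀ a, (Finset.univ.filter fun j => x a j = true).card = ρ a) ∧
            ∀ j, (Finset.univ.filter fun a => x a j = true).card = c j},
      |(P ^ t) x y - 1 / (Fintype.card {x : α → β → Bool //
          (∀ a, (Finset.univ.filter fun j => x a j = true).card = ρ a) ∧
            ∀ j, (Finset.univ.filter fun a => x a j = true).card = c j} : ℝ)| ≤ ε := by
  let e : TabClass ρ c ≃ {x : α → β → Bool //
      (∀ a, (Finset.univ.filter fun j => x a j = true).card = ρ a) ∧
        ∀ j, (Finset.univ.filter fun a => x a j = true).card = c j} :=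
    Equiv.subtypeEquivRight (fun z => by
      unfold Omega rowSum colSum
      exact Finset.mem_filter.trans (and_iff_right (Finset.mem_univ z)))
  have he : ∀ z : TabClass ρ c, (e z).1 = z.1 := fun z => rfl
  have hQ : (Matrix.reindexAlgEquiv ℝ ℝ e.symm) P = chainB ρ c := by
    ext z w
    rw [Matrix.coe_reindexAlgEquiv, Matrix.reindex_apply, Matrix.submatrix_apply, hP]
    simp only [Equiv.symm_symm]
    unfold chainB
    have h1 : (if e z = e w then (1 : ℝ) else 0) = if z = w then 1 else 0 := by
      simp only [e.apply_eq_iff_eq]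
    have h2 : (Finset.univ.filter fun p : (Fin 2 ↪ α) × (Fin 2 ↪ β) =>
          (if ((e z).1 (p.1 0) (p.2 0) = true ∧ (e z).1 (p.1 1) (p.2 1) = true ∧
                  (e z).1 (p.1 0) (p.2 1) = false ∧ (e z).1 (p.1 1) (p.2 0) = false) ∨
                ((e z).1 (p.1 0) (p.2 1) = true ∧ (e z).1 (p.1 1) (p.2 0) = true ∧
                  (e z).1 (p.1 0) (p.2 0) = false ∧ (e z).1 (p.1 1) (p.2 1) = false)
              then fun a j => if (a = p.1 0 ∨ a = p.1 1) ∧ (j = p.2 0 ∨ j = p.2 1)
                then !((e z).1 a j) else (e z).1 a j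
              else (e z).1) = (e w).1)
        = Finset.univ.filter fun p : (Fin 2 ↪ α) × (Fin 2 ↪ β) => moveB z.1 p.1 p.2 = w.1 := by
      apply Finset.filter_congr
      intro p _
      rw [he, he, moveB_plain]
    rw [h1, h2]
  have hpow : chainB ρ c ^ t = (Matrix.reindexAlgEquiv ℝ ℝ e.symm) (P ^ t) := by
    rw [map_pow, hQ]
  have key := Vale.Agent.Results.P328.BinaryTables.result hα hβ ρ c ε hε t ht (e.symm x)
  rw [hpow] at key
  have hcard : Fintype.card (TabClass ρ c) = Fintype.card {x : α → β → Bool //
      (∀ a, (Finset.univ.filter fun j => x a j = true).card = ρ a) ∧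
        ∀ j, (Finset.univ.filter fun a => x a j = true).card = c j} := Fintype.card_congr e
  rw [← Equiv.sum_comp e]
  refine le_trans (le_of_eq ?_) key
  congr 1
  apply Finset.sum_congr rfl
  intro z _
  rw [Matrix.coe_reindexAlgEquiv, Matrix.reindex_apply, Matrix.submatrix_apply, hcard]
  simp

end Vale.Agent.Results.P328.BinaryTablesPlain
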